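import Vale.Agent.P176.Step

namespace Vale.Agent.Results.P176.Main

open CategoryTheory

/-- The little finitistic dimension: the supremum of the projective dimensions of the finitely
generated left modules of finite projective dimension. -/
noncomputable def findim (A : Type) [Ring A] : WithBot ℕ∞ :=
  ⨆ (N : ModuleCat.{0} A) (_ : Module.Finite A N) (_ : projectiveDimension N ≠ ⊤),
    projectiveDimension N

theorem result : ∃ (A : Type) (_ : Ring A) (_ : Algebra ℚ A), Module.Finite ℚ A ∧
    (∀ n : ℕ, ∃ N : ModuleCat.{0} A, Module.Finite A N ∧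
      projectiveDimension N = ((2 * n + 4 : ℕ) : WithBot ℕ∞)) ∧
    findim A = ⊤ := by
  have key : ∀ n : ℕ, ∃ N : ModuleCat.{0} Vale.Agent.P176.Lam, Module.Finite Vale.Agent.P176.Lam N ∧
      projectiveDimension N = ((2 * n + 4 : ℕ) : WithBot ℕ∞) := fun n =>
    ⟨ModuleCat.of _ (Vale.Agent.P176.Mt (n + 1)), inferInstance,
      le_antisymm ((projectiveDimension_le_iff _ _).mpr (Vale.Agent.P176.pd_Mt n).1)
        ((projectiveDimension_ge_iff _ _).mpr (Vale.Agent.P176.pd_Mt n).2)⟩
  refine ⟨Vale.Agent.P176.Lam, inferInstance, inferInstance, inferInstance, key, ?_⟩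
  have h : ∀ n : ℕ, (n : WithBot ℕ∞) ≤ findim Vale.Agent.P176.Lam := by
    intro n
    obtain ⟨N, hN, e⟩ := key n
    have h1 : projectiveDimension N ≠ ⊤ := by
      rw [e]
      exact fun h => ENat.natCast_ne_top _ (WithBot.coe_eq_coe.1 h)
    refine le_trans ?_ (le_iSup₂_of_le N hN (le_iSup_of_le h1 le_rfl))
    rw [e]
    exact_mod_cast (by omega : n ≤ 2 * n + 4)
  generalize findim Vale.Agent.P176.Lam = d at h
  induction d with
  | bot => exact absurd (h 0) (by simp)
  | coe d =>
    induction d with
    | top => rfl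
    | coe d =>
      have := h (d + 1)
      norm_cast at this
      omega

end Vale.Agent.Results.P176.Main
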